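import Mathlib

namespace Vale.Agent.Lib.P329

variable {α : Type} [DecidableEq α]

/-- `sc u w`: the number of occurrences of `u` as a scattered subword of `w` -/
def sc : List α → List α → ℕ
  | [], _ => 1
  | _ :: _, [] => 0
  | x :: u, d :: w => sc (x :: u) w + if x = d then sc u w else 0

@[simp] lemma sc_nil (w : List α) : sc [] w = 1 := by
  cases w <;> rfl

@[simp] lemma sc_cons_nil (x : α) (u : List α) : sc (x :: u) [] = 0 := rfl

lemma sc_cons_cons (x : α) (u : List α) (d : α) (w : List α) :
    sc (x :: u) (d :: w) = sc (x :: u) w + if x = d then sc u w else 0 := rfl

/-- recursion on the last letters -/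
lemma sc_snoc (u : List α) (x : α) (w : List α) (d : α) :
    sc (u ++ [x]) (w ++ [d]) = sc (u ++ [x]) w + if x = d then sc u w else 0 := by
  induction w generalizing u with
  | nil =>
    cases u with
    | nil => simp [sc_cons_cons]
    | cons y u =>
      cases u with
      | nil => simp [sc_cons_cons]
      | cons z u => simp [sc_cons_cons]
  | cons e w ih =>
    cases u with
    | nil =>
      have h := ih []
      simp only [List.nil_append] at h
      simp only [List.nil_append, List.cons_append, sc_cons_cons, sc_nil, h]
      ring
    | cons y u =>
      have h1 := ih (y :: u)
      have h2 := ih u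
      simp only [List.cons_append] at h1
      simp only [List.cons_append, sc_cons_cons, h1]
      by_cases hy : y = e
      · simp only [hy, if_true, h2]
        by_cases hx : x = d
        · simp only [hx, if_true]; ring
        · simp only [hx, if_false]; ring
      · simp only [hy, if_false]
        by_cases hx : x = d
        · simp only [hx, if_true]; ring
        · simp only [hx, if_false]

lemma sc_singleton (x : α) (w : List α) : sc [x] w = w.count x := by
  induction w with
  | nil => simp
  | cons d w ih =>
    rw [sc_cons_cons, ih, List.count_cons]
    by_cases h : x = d
    · subst h; simp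
    · have h' : ¬ d = x := fun e => h e.symm
      simp [h, h']

/-- erasing a letter that does not occur in `u` -/
lemma sc_filter_of_not_mem (d : α) (u : List α) (hd : d ∉ u) (w : List α) :
    sc u (w.filter fun a => decide (a ≠ d)) = sc u w := by
  induction w generalizing u with
  | nil => simp
  | cons e w ih =>
    cases u with
    | nil => simp
    | cons x u =>
      have hx : x ≠ d := fun h => hd (by simp [h])
      have hu : d ∉ u := fun h => hd (by simp [h])
      by_cases he : e = d
      · subst he
        rw [List.filter_cons_of_neg (by simp), ih _ hd, sc_cons_cons, if_neg hx, add_zero]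
      · rw [List.filter_cons_of_pos (by simp [he]), sc_cons_cons, sc_cons_cons, ih _ hd, ih _ hu]

lemma sc_eq_zero_of_not_mem (d : α) (u : List α) (hd : d ∈ u) (w : List α) (hw : d ∉ w) :
    sc u w = 0 := by
  induction w generalizing u with
  | nil =>
    cases u with
    | nil => simp at hd
    | cons x u => simp
  | cons e w ih =>
    cases u with
    | nil => simp at hd
    | cons x u =>
      have hw' : d ∉ w := fun h => hw (by simp [h])
      have hde : d ≠ e := fun h => hw (by simp [h])
      rw [sc_cons_cons, ih _ hd hw', zero_add]
      by_cases hx : x = e
      · rw [if_pos hx]
        have hdu : d ∈ u := by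
          rcases List.mem_cons.mp hd with h | h
          · exact absurd (h.trans hx) hde
          · exact h
        exact ih _ hdu hw'
      · rw [if_neg hx]

lemma count_mul_count (x y : α) (h : x ≠ y) (w : List α) :
    w.count x * w.count y = sc [x, y] w + sc [y, x] w := by
  induction w with
  | nil => simp
  | cons d w ih =>
    rw [sc_cons_cons, sc_cons_cons, sc_singleton, sc_singleton, List.count_cons, List.count_cons]
    by_cases hx : x = d
    · subst hx
      have hy : ¬ y = x := fun e => h e.symm
      simp only [beq_self_eq_true, if_true, hy, if_false, beq_iff_eq, h, add_zero]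
      nlinarith [ih]
    · by_cases hy : y = d
      · subst hy
        have hx' : ¬ y = x := fun e => hx e.symm
        simp only [beq_self_eq_true, if_true, hx, if_false, beq_iff_eq, hx', add_zero]
        nlinarith [ih]
      · have hx' : ¬ d = x := fun e => hx e.symm
        have hy' : ¬ d = y := fun e => hy e.symm
        simp only [hx, hy, if_false, beq_iff_eq, hx', hy', add_zero]
        exact ih

end Vale.Agent.Lib.P329
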