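import Vale.Agent.Lib.P329.Sub.WSum
import Vale.Agent.Lib.P329.Sub.SubCount

namespace Vale.Agent.Lib.P329

open Computability

variable {α : Type} [DecidableEq α]

/-- the class of a single letter -/
def cl1 (x : α) : α → Bool := fun a => decide (a = x)
/-- the class of two letters -/
def cl2 (x z : α) : α → Bool := fun a => decide (a = x) || decide (a = z)

lemma countP_cl1 (x : α) (w : List α) : w.countP (cl1 x) = w.count x := by
  induction w with
  | nil => rfl
  | cons d w ih =>
    rw [List.countP_cons, List.count_cons, ih]
    by_cases h : d = x <;> simp [cl1, h]

lemma countP_cl2 (x z : α) (h : x ≠ z) (w : List α) :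
    w.countP (cl2 x z) = w.count x + w.count z := by
  induction w with
  | nil => rfl
  | cons d w ih =>
    rw [List.countP_cons, List.count_cons, List.count_cons, ih]
    by_cases hx : d = x
    · subst hx
      simp [cl2, h]
      ring
    · by_cases hz : d = z
      · subst hz
        simp [cl2, hx]
        ring
      · simp [cl2, hx, hz]

lemma choose_two_add (a c : ℕ) : (a + c).choose 2 = a * c + a.choose 2 + c.choose 2 := by
  induction c with
  | zero => simp
  | succ c ih =>
    rw [← add_assoc, Nat.choose_succ_succ' (a + c) 1, Nat.choose_succ_succ' c 1, ih,
      Nat.choose_one_right, Nat.choose_one_right]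
    ring

lemma sc_xy (x y : α) (h : x ≠ y) (w : List α) :
    sc [x, y] w = wsum (cl1 x) y (fun n => n) 0 w := by
  induction w using List.reverseRecOn with
  | nil => rfl
  | append_singleton w d ih =>
    have h1 := sc_snoc [x] y w d
    simp only [List.singleton_append] at h1
    rw [h1, wsum_snoc, ih, sc_singleton, countP_cl1, zero_add]
    by_cases hd : y = d
    · subst hd
      simp
    · have hd' : ¬ d = y := fun e => hd e.symm
      simp [hd, hd']

lemma sc_xx (x : α) (w : List α) : sc [x, x] w = (w.count x).choose 2 := by
  induction w using List.reverseRecOn with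
  | nil => rfl
  | append_singleton w d ih =>
    have h1 := sc_snoc [x] x w d
    simp only [List.singleton_append] at h1
    rw [h1, ih, sc_singleton, List.count_append]
    by_cases hd : x = d
    · subst hd
      rw [if_pos rfl, List.count_singleton_self, Nat.choose_succ_succ' _ 1, Nat.choose_one_right]
      ring
    · have hd' : ¬ d = x := fun e => hd e.symm
      simp [hd, hd']

lemma sc_xxx (x : α) (w : List α) : sc [x, x, x] w = (w.count x).choose 3 := by
  induction w using List.reverseRecOn with
  | nil => rfl
  | append_singleton w d ih =>
    have h1 := sc_snoc [x, x] x w d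
    simp only [List.cons_append, List.nil_append] at h1
    rw [h1, ih, sc_xx, List.count_append]
    by_cases hd : x = d
    · subst hd
      rw [if_pos rfl, List.count_singleton_self, Nat.choose_succ_succ' _ 2]
      ring
    · have hd' : ¬ d = x := fun e => hd e.symm
      simp [hd, hd']

lemma sc_xyz (x y z : α) (hxy : x ≠ y) (hyz : y ≠ z) (hxz : x ≠ z) (w : List α) :
    sc [x, y, z] w + wsum (cl2 x z) y (fun n => n.choose 2) 0 w =
      w.count z * wsum (cl1 x) y (fun n => n) 0 w + wsum (cl1 x) y (fun n => n.choose 2) 0 w
        + wsum (cl1 z) y (fun n => n.choose 2) 0 w := by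
  induction w using List.reverseRecOn with
  | nil => simp [wsum]
  | append_singleton w e ih =>
    have h3 : sc [x, y, z] (w ++ [e]) = sc [x, y, z] w + if z = e then sc [x, y] w else 0 :=
      sc_snoc [x, y] z w e
    rw [h3, wsum_snoc, wsum_snoc, wsum_snoc, wsum_snoc, List.count_append, countP_cl2 x z hxz,
      countP_cl1, countP_cl1, sc_xy x y hxy]
    by_cases hez : z = e
    · subst hez
      have hzy : ¬ z = y := fun h => hyz h.symm
      simp only [if_true, hzy, if_false, add_zero, List.count_singleton_self]
      nlinarith [ih]
    · have hez' : ¬ e = z := fun h => hez h.symm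
      have hc : List.count z [e] = 0 := by
        rw [List.count_singleton]
        simp [hez']
      rw [hc]
      by_cases hey : e = y
      · subst hey
        simp only [hez, if_false, if_true, add_zero, zero_add]
        have := choose_two_add (w.count x) (w.count z)
        nlinarith [ih]
      · simp only [hez, if_false, hey, add_zero]
        exact ih

lemma two_choose_two_add (c : ℕ) : 2 * c.choose 2 + c = c * c := by
  induction c with
  | zero => simp
  | succ c ih =>
    rw [Nat.choose_succ_succ' c 1, Nat.choose_one_right]
    nlinarith [ih]

lemma sc_xyx (x y : α) (hxy : x ≠ y) (w : List α) :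
    sc [x, y, x] w + (2 * wsum (cl1 x) y (fun n => n.choose 2) 0 w
        + wsum (cl1 x) y (fun n => n) 0 w) =
      w.count x * wsum (cl1 x) y (fun n => n) 0 w := by
  induction w using List.reverseRecOn with
  | nil => rfl
  | append_singleton w d ih =>
    have h1 := sc_snoc [x, y] x w d
    simp only [List.cons_append, List.nil_append] at h1
    rw [h1, wsum_snoc, wsum_snoc, sc_xy x y hxy, countP_cl1, zero_add, List.count_append]
    by_cases hd : x = d
    · subst hd
      rw [if_pos rfl, if_neg hxy, if_neg hxy, List.count_singleton_self]
      nlinarith [ih]
    · have hd' : ¬ d = x := fun e => hd e.symm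
      have hc : List.count x [d] = 0 := by simp [hd']
      rw [if_neg hd, hc]
      by_cases hy : d = y
      · rw [if_pos hy, if_pos hy]
        have h2 := two_choose_two_add (w.count x)
        nlinarith [ih, h2]
      · rw [if_neg hy, if_neg hy]
        simpa using ih

lemma sc_xxz (x z : α) (hxz : x ≠ z) (w : List α) :
    sc [x, x, z] w = wsum (cl1 x) z (fun n => n.choose 2) 0 w := by
  induction w using List.reverseRecOn with
  | nil => rfl
  | append_singleton w d ih =>
    have h1 := sc_snoc [x, x] z w d
    simp only [List.cons_append, List.nil_append] at h1
    rw [h1, wsum_snoc, ih, sc_xx, countP_cl1, zero_add]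
    by_cases hd : z = d
    · subst hd
      simp
    · have hd' : ¬ d = z := fun e => hd e.symm
      simp [hd, hd']

lemma sc_xyy (x y : α) (hxy : x ≠ y) (w : List α) :
    sc [x, y, y] w + w.count y * wsum (cl1 y) x (fun n => n) 0 w =
      (w.count y).choose 2 * w.count x + wsum (cl1 y) x (fun n => (n + 1).choose 2) 0 w := by
  induction w using List.reverseRecOn with
  | nil => simp [wsum]
  | append_singleton w e ih =>
    have h3 : sc [x, y, y] (w ++ [e]) = sc [x, y, y] w + if y = e then sc [x, y] w else 0 :=
      sc_snoc [x, y] y w e
    have hyx : y ≠ x := fun h => hxy h.symm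
    rw [h3, wsum_snoc, wsum_snoc, List.count_append, List.count_append, countP_cl1]
    by_cases hey : y = e
    · subst hey
      have hc : List.count x [y] = 0 := by
        rw [List.count_singleton]
        simp [hyx]
      have h1 := count_mul_count x y hxy w
      have h2 := sc_xy y x hyx w
      have h4 : (w.count y + 1).choose 2 = (w.count y).choose 2 + w.count y := by
        rw [Nat.choose_succ_succ' (w.count y) 1, Nat.choose_one_right, add_comm]
      simp only [if_true, hyx, if_false, add_zero, List.count_singleton_self, hc, h4]
      rw [← h2]
      rw [← h2] at ih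
      nlinarith [ih, h1]
    · have hey' : ¬ e = y := fun h => hey h.symm
      have hc : List.count y [e] = 0 := by
        rw [List.count_singleton]
        simp [hey']
      rw [hc]
      by_cases hex : e = x
      · subst hex
        have h4 : (w.count y + 1).choose 2 = (w.count y).choose 2 + w.count y := by
          rw [Nat.choose_succ_succ' (w.count y) 1, Nat.choose_one_right, add_comm]
        have h5 : 2 * (w.count y).choose 2 + w.count y = w.count y * w.count y := by
          have := Nat.triangle_succ (w.count y)
          have h6 := Nat.choose_two_right (w.count y)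
          have h7 : 2 ∣ w.count y * (w.count y - 1) := (Nat.even_mul_pred_self _).two_dvd
          obtain ⟨t, ht⟩ := h7
          rw [h6, ht, Nat.mul_div_cancel_left _ (by norm_num), ← ht]
          cases hn : w.count y with
          | zero => simp
          | succ n => simp; ring
        simp only [hey, if_false, if_true, add_zero, zero_add, List.count_singleton_self, h4]
        nlinarith [ih, h5]
      · have hc2 : List.count x [e] = 0 := by
          rw [List.count_singleton]
          simp [hex]
        simp only [hey, if_false, hex, add_zero, hc2]
        exact ih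

/-- Counting modulo any integer the occurrences of a scattered subword of length at most three
defines languages of generalized star height at most one. -/
theorem pmeas_sc [Finite α] (u : List α) (hu : u.length ≤ 3) : PMeas (sc u) := by
  have hcl1 : ∀ a b : α, a ≠ b → cl1 a b = false := by
    intro a b hab
    have : ¬ b = a := fun h => hab h.symm
    simp [cl1, this]
  match u, hu with
  | [], _ => exact (PMeas.const 1).congr fun w => sc_nil w
  | [x], _ => exact (pmeas_count x).congr fun w => sc_singleton x w
  | [x, y], _ =>
    by_cases hxy : x = y
    · subst hxy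
      exact ((pmeas_count x).comp_per (per_choose 2)).congr fun w => sc_xx x w
    · exact (pmeas_wsum (cl1 x) y (hcl1 x y hxy) (fun n => n) per_id).congr fun w => sc_xy x y hxy w
  | [x, y, z], _ =>
    by_cases hxy : x = y
    · subst hxy
      by_cases hxz : x = z
      · subst hxz
        exact ((pmeas_count x).comp_per (per_choose 3)).congr fun w => sc_xxx x w
      · exact (pmeas_wsum (cl1 x) z (hcl1 x z hxz) (fun n => n.choose 2) (per_choose 2)).congr
          fun w => sc_xxz x z hxz w
    · have hyx : y ≠ x := fun h => hxy h.symm
      by_cases hyz : y = z
      · subst hyz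
        exact PMeas.of_add_eq
          (g := fun w => w.count y * wsum (cl1 y) x (fun n => n) 0 w)
          (k := fun w => (w.count y).choose 2 * w.count x
            + wsum (cl1 y) x (fun n => (n + 1).choose 2) 0 w)
          ((pmeas_count y).mul (pmeas_wsum (cl1 y) x (hcl1 y x hyx) (fun n => n) per_id))
          ((((pmeas_count y).comp_per (per_choose 2)).mul (pmeas_count x)).add
            (pmeas_wsum (cl1 y) x (hcl1 y x hyx) (fun n => (n + 1).choose 2)
              ((per_choose 2).shift 1)))
          (fun w => sc_xyy x y hxy w)
      · by_cases hxz : x = z
        · subst hxz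
          exact PMeas.of_add_eq
            (g := fun w => 2 * wsum (cl1 x) y (fun n => n.choose 2) 0 w
              + wsum (cl1 x) y (fun n => n) 0 w)
            (k := fun w => w.count x * wsum (cl1 x) y (fun n => n) 0 w)
            (((PMeas.const 2).mul
              (pmeas_wsum (cl1 x) y (hcl1 x y hxy) (fun n => n.choose 2) (per_choose 2))).add
              (pmeas_wsum (cl1 x) y (hcl1 x y hxy) (fun n => n) per_id))
            ((pmeas_count x).mul (pmeas_wsum (cl1 x) y (hcl1 x y hxy) (fun n => n) per_id))
            (fun w => sc_xyx x y hxy w)
        · have hzy : z ≠ y := fun h => hyz h.symm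
          have hcl2 : cl2 x z y = false := by
            simp [cl2, hyx, hyz]
          exact PMeas.of_add_eq
            (g := fun w => wsum (cl2 x z) y (fun n => n.choose 2) 0 w)
            (k := fun w => w.count z * wsum (cl1 x) y (fun n => n) 0 w
              + wsum (cl1 x) y (fun n => n.choose 2) 0 w
              + wsum (cl1 z) y (fun n => n.choose 2) 0 w)
            (pmeas_wsum (cl2 x z) y hcl2 (fun n => n.choose 2) (per_choose 2))
            ((((pmeas_count z).mul (pmeas_wsum (cl1 x) y (hcl1 x y hxy) (fun n => n) per_id)).add
              (pmeas_wsum (cl1 x) y (hcl1 x y hxy) (fun n => n.choose 2) (per_choose 2))).add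
              (pmeas_wsum (cl1 z) y (hcl1 z y hzy) (fun n => n.choose 2) (per_choose 2)))
            (fun w => sc_xyz x y z hxy hyz hxz w)

end Vale.Agent.Lib.P329
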