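import Vale.Agent.Lib.P329.Sub.Mono

namespace Vale.Agent.Lib.P329

open Computability

variable {α : Type}

/-- `f` is measurable: every predicate of `f w` defines a language of height at most one -/
def Meas {β : Type} (f : List α → β) : Prop :=
  ∀ P : β → Prop, HasHeight 1 (langOf fun w : List α => P (f w))

lemma Meas.comp {β γ : Type} {f : List α → β} (hf : Meas f) (g : β → γ) :
    Meas (fun w => g (f w)) := fun P => hf fun b => P (g b)

lemma Meas.pi {ι β : Type} [Finite ι] [Finite β] {f : ι → List α → β} (h : ∀ i, Meas (f i)) :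
    Meas (fun w i => f i w) := fun P =>
  hasHeight_of_tuple f (fun i s => h i (fun b => b = s)) P

lemma Meas.of_fibres {β : Type} [Finite β] {f : List α → β}
    (h : ∀ b, HasHeight 1 (langOf fun w : List α => f w = b)) : Meas f := fun P =>
  hasHeight_of_tuple (ι := Unit) (fun _ => f) (fun _ s => h s) (fun t => P (t ()))

lemma Meas.const {β : Type} (b : β) : Meas (fun _ : List α => b) := by
  intro P
  by_cases h : P b
  · exact HasHeight.top.of_iff fun w => ⟨fun _ => trivial, fun _ => h⟩
  · exact HasHeight.zero.of_iff fun w => ⟨fun h' => (h h').elim, fun h' => h'.elim⟩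

lemma Meas.prodMk {β γ : Type} [Finite β] [Finite γ] {f : List α → β} {g : List α → γ}
    (hf : Meas f) (hg : Meas g) : Meas (fun w => (f w, g w)) := by
  intro P
  have h := HasHeight.iUnion_of (n := 1) (fun t : β × γ => P t)
    (fun t => (langOf fun w : List α => f w = t.1) ⊓ (langOf fun w : List α => g w = t.2))
    (fun t _ => (hf fun b => b = t.1).inf (hg fun c => c = t.2))
  refine h.of_iff fun w => ?_
  constructor
  · intro hw
    exact ⟨(f w, g w), hw, rfl, rfl⟩
  · rintro ⟨t, ht, h1, h2⟩
    have h1' : f w = t.1 := h1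
    have h2' : g w = t.2 := h2
    show P (f w, g w)
    rw [h1', h2']
    exact ht

/-- a statistic with values in `ℕ` that is measurable modulo every modulus -/
def PMeas (f : List α → ℕ) : Prop :=
  ∀ M : ℕ, M ≠ 0 → Meas (fun w : List α => (f w : ZMod M))

lemma PMeas.const (n : ℕ) : PMeas (fun _ : List α => n) := fun _ _ => Meas.const _

lemma PMeas.congr {f g : List α → ℕ} (hf : PMeas f) (h : ∀ w, g w = f w) : PMeas g := by
  have : g = f := funext h
  rw [this]; exact hf

lemma PMeas.add {f g : List α → ℕ} (hf : PMeas f) (hg : PMeas g) :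
    PMeas (fun w => f w + g w) := by
  intro M hM
  have : NeZero M := ⟨hM⟩
  have h := ((hf M hM).prodMk (hg M hM)).comp fun t => t.1 + t.2
  simpa using h

lemma PMeas.mul {f g : List α → ℕ} (hf : PMeas f) (hg : PMeas g) :
    PMeas (fun w => f w * g w) := by
  intro M hM
  have : NeZero M := ⟨hM⟩
  have h := ((hf M hM).prodMk (hg M hM)).comp fun t => t.1 * t.2
  simpa using h

/-- cancellation: if `f + g = k` with `g` and `k` measurable then `f` is measurable -/
lemma PMeas.of_add_eq {f g k : List α → ℕ} (hg : PMeas g) (hk : PMeas k)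
    (h : ∀ w, f w + g w = k w) : PMeas f := by
  intro M hM
  have : NeZero M := ⟨hM⟩
  have h1 := ((hk M hM).prodMk (hg M hM)).comp fun t => t.1 - t.2
  have h2 : (fun w : List α => (f w : ZMod M)) = fun w => (k w : ZMod M) - (g w : ZMod M) := by
    funext w
    rw [← h w]
    push_cast
    ring
  rw [h2]
  exact h1

/-- `F` is periodic modulo every modulus -/
def Per (F : ℕ → ℕ) : Prop :=
  ∀ M : ℕ, M ≠ 0 → ∃ N : ℕ, N ≠ 0 ∧ ∀ n n' : ℕ, n ≡ n' [MOD N] → F n ≡ F n' [MOD M]

lemma PMeas.comp_per {f : List α → ℕ} (hf : PMeas f) {F : ℕ → ℕ} (hF : Per F) :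
    PMeas (fun w => F (f w)) := by
  intro M hM
  obtain ⟨N, hN, hper⟩ := hF M hM
  have : NeZero N := ⟨hN⟩
  have h := (hf N hN).comp fun x : ZMod N => (F x.val : ZMod M)
  have h2 : (fun w : List α => (F (f w) : ZMod M)) = fun w => (F ((f w : ZMod N)).val : ZMod M) := by
    funext w
    rw [ZMod.natCast_eq_natCast_iff]
    apply hper
    rw [ZMod.val_natCast]
    exact (Nat.mod_modEq _ _).symm
  rw [h2]
  exact h

lemma per_id : Per (fun n => n) := fun M hM => ⟨M, hM, fun _ _ h => h⟩

lemma Per.add {F F' : ℕ → ℕ} (h : Per F) (h' : Per F') : Per (fun n => F n + F' n) := by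
  intro M hM
  obtain ⟨N, hN, hp⟩ := h M hM
  obtain ⟨N', hN', hp'⟩ := h' M hM
  refine ⟨N * N', Nat.mul_ne_zero hN hN', fun n n' hn => ?_⟩
  exact (hp n n' (hn.of_mul_right N')).add (hp' n n' (hn.of_mul_left N))

lemma Per.mul {F F' : ℕ → ℕ} (h : Per F) (h' : Per F') : Per (fun n => F n * F' n) := by
  intro M hM
  obtain ⟨N, hN, hp⟩ := h M hM
  obtain ⟨N', hN', hp'⟩ := h' M hM
  refine ⟨N * N', Nat.mul_ne_zero hN hN', fun n n' hn => ?_⟩
  exact (hp n n' (hn.of_mul_right N')).mul (hp' n n' (hn.of_mul_left N))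

lemma Per.shift {F : ℕ → ℕ} (h : Per F) (c : ℕ) : Per (fun n => F (n + c)) := by
  intro M hM
  obtain ⟨N, hN, hp⟩ := h M hM
  exact ⟨N, hN, fun n n' hn => hp _ _ (hn.add_right c)⟩


lemma dvd_choose_period (M k j : ℕ) (hj : 1 ≤ j) (hjk : j ≤ k) : M ∣ (M * Nat.factorial k).choose j := by
  obtain ⟨i, rfl⟩ : ∃ i, j = i + 1 := ⟨j - 1, by omega⟩
  obtain ⟨q, hq⟩ : (i + 1) ∣ Nat.factorial k := Nat.dvd_factorial (by omega) hjk
  rcases Nat.eq_zero_or_pos (M * Nat.factorial k) with h0 | hpos
  · rw [h0]; simp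
  obtain ⟨N', hN'⟩ : ∃ N', M * Nat.factorial k = N' + 1 := ⟨(M * Nat.factorial k) - 1, by omega⟩
  have h1 : (N' + 1) * N'.choose i = (N' + 1).choose (i + 1) * (i + 1) :=
    Nat.add_one_mul_choose_eq N' i
  rw [hN']
  have h2 : (i + 1) * (N' + 1).choose (i + 1) = (i + 1) * (M * (q * N'.choose i)) := by
    calc (i + 1) * (N' + 1).choose (i + 1) = (N' + 1) * N'.choose i := by rw [h1]; ring
      _ = (M * Nat.factorial k) * N'.choose i := by rw [hN']
      _ = (i + 1) * (M * (q * N'.choose i)) := by rw [hq]; ring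
  have h3 := Nat.eq_of_mul_eq_mul_left (by omega : 0 < i + 1) h2
  exact ⟨_, h3⟩

lemma choose_add_period (M k n : ℕ) : (n + M * Nat.factorial k).choose k ≡ n.choose k [MOD M] := by
  rw [← ZMod.natCast_eq_natCast_iff, Nat.add_choose_eq, Nat.cast_sum]
  rw [Finset.sum_eq_single (k, 0)]
  · simp
  · rintro ⟨a, b⟩ hab hne
    have hab' : a + b = k := by simpa using hab
    have hb : 1 ≤ b := by
      rcases Nat.eq_zero_or_pos b with h | h
      · exfalso; apply hne; subst h; simp at hab'; simp [hab']
      · exact h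
    have hd := dvd_choose_period M k b hb (by omega)
    have : (((M * Nat.factorial k).choose b : ℕ) : ZMod M) = 0 := (ZMod.natCast_eq_zero_iff _ _).mpr hd
    push_cast
    rw [this, mul_zero]
  · intro h
    exfalso; apply h; simp

lemma choose_add_mul_period (M k n t : ℕ) :
    (n + t * (M * Nat.factorial k)).choose k ≡ n.choose k [MOD M] := by
  induction t with
  | zero => simp; exact Nat.ModEq.refl _
  | succ t ih =>
    have : n + (t + 1) * (M * Nat.factorial k) = (n + t * (M * Nat.factorial k)) + M * Nat.factorial k := by ring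
    rw [this]
    exact (choose_add_period M k _).trans ih

lemma choose_period_of_le (M k n n' : ℕ) (hle : n ≤ n') (h : n ≡ n' [MOD M * Nat.factorial k]) :
    n.choose k ≡ n'.choose k [MOD M] := by
  obtain ⟨t, ht⟩ := (Nat.modEq_iff_dvd' hle).mp h
  have : n' = n + t * (M * Nat.factorial k) := by
    have : n' - n = t * (M * Nat.factorial k) := by rw [ht]; ring
    omega
  rw [this]
  exact (choose_add_mul_period M k n t).symm

/-- binomial coefficients are periodic modulo every modulus -/
lemma per_choose (k : ℕ) : Per (fun n => n.choose k) := by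
  intro M hM
  refine ⟨M * Nat.factorial k, Nat.mul_ne_zero hM (Nat.factorial_ne_zero k), fun n n' h => ?_⟩
  rcases le_total n n' with hle | hle
  · exact choose_period_of_le M k n n' hle h
  · exact (choose_period_of_le M k n' n hle h.symm).symm

end Vale.Agent.Lib.P329
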