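import Vale.Agent.Lib.P329.BlockCount

namespace Vale.Agent.Lib.P329

open Computability

variable {α : Type} [DecidableEq α] (N : ℕ) [NeZero N] (M : ℕ) (s : α → ZMod N) (μ : α)

/-- Monotone levels: along a flat path the level (as a natural number) increases with each shifting
letter and never comes back to `0`. -/
lemma flat_bound (hs : ∀ a, s a = 0 ∨ s a = 1) (U : Bool → α → Bool)
    (hU : ∀ f a, U f a = true → s a = 0) (y : ZMod N × Bool) (v : List α)
    (h : FlatY s μ U y v) : y.1.val + v.countP (fun a => decide (s a ≠ 0)) < N := by
  induction v generalizing y with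
  | nil => simpa using ZMod.val_lt y.1
  | cons a v ih =>
    obtain ⟨h1, h2⟩ := h
    have h3 := ih _ h2
    rw [ystep_fst] at h3
    by_cases ha : s a = 0
    · rw [List.countP_cons_of_neg (by simpa using ha)]
      rwa [ha, add_zero] at h3
    · have ha1 : s a = 1 := (hs a).resolve_left ha
      rw [List.countP_cons_of_pos (by simpa using ha)]
      have hne : y.1 + 1 ≠ 0 := by
        intro h0
        exact ha (hU _ _ (h1 (by rw [ha1]; exact h0)))
      rw [ha1, val_succ_of_ne _ hne] at h3
      omega

lemma countP_flatten_replicate (P : α → Bool) (k : ℕ) (w : List α) :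
    (List.replicate k w).flatten.countP P = k * w.countP P := by
  induction k with
  | zero => simp
  | succ k ih =>
    rw [flatten_replicate_succ, List.countP_append, ih]
    ring

lemma sum_eq_zero_of_countP (w : List α) (h : w.countP (fun a => decide (s a ≠ 0)) = 0) :
    (w.map s).sum = 0 := by
  induction w with
  | nil => rfl
  | cons a w ih =>
    by_cases ha : s a = 0
    · rw [List.countP_cons_of_neg (by simpa using ha)] at h
      rw [List.map_cons, List.sum_cons, ha, zero_add, ih h]
    · rw [List.countP_cons_of_pos (by simpa using ha)] at h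
      omega

/-- Monotone levels modulo an arbitrary `N`: the block counter is cycle free as soon as the blocks
that are not counted end with a neutral letter. -/
theorem cycleFree_mono [NeZero M] (hs : ∀ a, s a = 0 ∨ s a = 1) (U : Bool → α → Bool)
    (hU : ∀ f a, U f a = true → s a = 0) : CycleFree (xstep N M s μ U) ((0, false), 0) := by
  refine cycleFree_of U fun y w _ hl hflat => ?_
  have h1 := flat_bound N s μ hs U hU y _ (hflat N)
  rw [countP_flatten_replicate] at h1
  have h2 : w.countP (fun a => decide (s a ≠ 0)) ≠ 0 := fun h => hl (sum_eq_zero_of_countP N s w h)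
  have h3 : N * 1 ≤ N * w.countP (fun a => decide (s a ≠ 0)) :=
    Nat.mul_le_mul_left N (Nat.one_le_iff_ne_zero.mpr h2)
  omega

/-- counting a neutral letter at a given level, the levels being monotone modulo an arbitrary `N` -/
theorem hasHeight_cnt_mono [Finite α] (hs : ∀ a, s a = 0 ∨ s a = 1) (hμ : s μ = 0) (l : ZMod N)
    (m : ℕ) [NeZero m] (r : ZMod m) :
    HasHeight 1 (langOf fun w : List α => (cntFrom s μ l 0 w : ZMod m) = r) := by
  refine (hasHeight_of_tuple (ι := Bool) (S := (ZMod N × Bool) × ZMod m)
    (fun (b : Bool) (w : List α) =>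
      w.foldl (xstep N m s μ (if b then U0 else U3 μ)) ((-l, false), 0))
    (fun b q => ?_) (fun t => (t true).2 - (t false).2 = r)).of_iff fun w => ?_
  · cases b
    · refine hasHeight_run_eq_of_cycleFree (cycleFree_mono N m s μ hs _ fun f a h => ?_) _ _
      have : a = μ := by
        simp only [Bool.false_eq_true, if_false, U3, Bool.and_eq_true, decide_eq_true_eq] at h
        exact h.2
      rw [this, hμ]
    · refine hasHeight_run_eq_of_cycleFree (cycleFree_mono N m s μ hs _ fun f a h => ?_) _ _
      simp [U0] at h
  · have h1 := inv_neutral N m s μ hμ (-l, false) 0 0 w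
    have h2 := cntFrom_add s μ 0 (-l) l w
    rw [zero_add, neg_add_cancel] at h2
    simp only [sub_zero] at h1
    rw [mem_langOf, mem_langOf, h2, ← h1]
    simp

end Vale.Agent.Lib.P329
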