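import Vale.Agent.Lib.P329.Sub.Meas

namespace Vale.Agent.Lib.P329

open Computability

variable {α : Type} [DecidableEq α]

/-- `wsum S μ F cur w`: the sum, over the occurrences of the letter `μ` in `w`, of `F (cur + k)`
where `k` is the number of letters of the class `S` that stand before the occurrence -/
def wsum (S : α → Bool) (μ : α) (F : ℕ → ℕ) : ℕ → List α → ℕ
  | _, [] => 0
  | cur, a :: w => (if a = μ then F cur else 0) + wsum S μ F (cur + if S a then 1 else 0) w

lemma wsum_snoc (S : α → Bool) (μ : α) (F : ℕ → ℕ) (cur : ℕ) (w : List α) (a : α) :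
    wsum S μ F cur (w ++ [a]) = wsum S μ F cur w + if a = μ then F (cur + w.countP S) else 0 := by
  induction w generalizing cur with
  | nil => simp [wsum]
  | cons b w ih =>
    simp only [List.cons_append, wsum]
    rw [ih]
    by_cases hb : S b = true
    · rw [List.countP_cons_of_pos hb]
      simp only [hb, if_true]
      have : cur + 1 + List.countP S w = cur + (List.countP S w + 1) := by omega
      rw [this]
      ring
    · rw [List.countP_cons_of_neg hb]
      simp only [hb]
      simp only [Bool.false_eq_true, if_false, add_zero]
      ring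

/-- a weighted sum with a periodic weight is a combination of the level counters -/
lemma wsum_cast (S : α → Bool) (μ : α) (F : ℕ → ℕ) (M N : ℕ) [NeZero N]
    (hper : ∀ n n' : ℕ, n ≡ n' [MOD N] → F n ≡ F n' [MOD M]) (cur : ℕ) (w : List α) :
    (wsum S μ F cur w : ZMod M) = ∑ l : ZMod N, (F l.val : ZMod M) *
      (cntFrom (fun a => if S a then (1 : ZMod N) else 0) μ l (cur : ZMod N) w : ZMod M) := by
  induction w generalizing cur with
  | nil => simp [wsum, cntFrom]
  | cons a w ih =>
    simp only [wsum, cntFrom]
    push_cast
    rw [ih]
    have hcur : ((cur + if S a = true then 1 else 0 : ℕ) : ZMod N)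
        = (cur : ZMod N) + if S a = true then (1 : ZMod N) else 0 := by
      split_ifs <;> simp
    rw [hcur]
    simp only [mul_add, Finset.sum_add_distrib]
    congr 1
    have hF : (F (cur : ZMod N).val : ZMod M) = (F cur : ZMod M) := by
      rw [ZMod.natCast_eq_natCast_iff]
      apply hper
      rw [ZMod.val_natCast]
      exact Nat.mod_modEq _ _
    by_cases ha : a = μ
    · simp only [ha, true_and, if_true]
      rw [Finset.sum_eq_single (cur : ZMod N)]
      · rw [hF]; simp
      · intro b _ hb
        simp [Ne.symm hb]
      · intro h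
        exact (h (Finset.mem_univ _)).elim
    · simp [ha]

/-- weighted sums over the occurrences of a letter outside the class `S` are measurable -/
theorem pmeas_wsum [Finite α] (S : α → Bool) (μ : α) (hμ : S μ = false) (F : ℕ → ℕ) (hF : Per F) :
    PMeas (wsum S μ F 0) := by
  intro M hM
  obtain ⟨N, hN, hper⟩ := hF M hM
  have : NeZero N := ⟨hN⟩
  have : NeZero M := ⟨hM⟩
  have h1 : ∀ l : ZMod N, Meas (fun w : List α =>
      (cntFrom (fun a => if S a then (1 : ZMod N) else 0) μ l 0 w : ZMod M)) := by
    intro l
    refine Meas.of_fibres fun r => ?_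
    refine hasHeight_cnt_mono N (fun a => if S a then (1 : ZMod N) else 0) μ ?_ ?_ l M r
    · intro a
      by_cases h : S a = true
      · right; simp [h]
      · left; simp [h]
    · simp [hμ]
  have h2 := (Meas.pi h1).comp fun t : ZMod N → ZMod M => ∑ l : ZMod N, (F l.val : ZMod M) * t l
  have h3 : (fun w : List α => (wsum S μ F 0 w : ZMod M)) = fun w => ∑ l : ZMod N,
      (F l.val : ZMod M) *
        (cntFrom (fun a => if S a then (1 : ZMod N) else 0) μ l 0 w : ZMod M) := by
    funext w
    have := wsum_cast S μ F M N hper 0 w
    simpa using this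
  rw [h3]
  exact h2

theorem pmeas_count [Finite α] (x : α) : PMeas (fun w : List α => w.count x) := by
  intro M hM
  have : NeZero M := ⟨hM⟩
  exact Meas.of_fibres fun r => hasHeight_count x M r

end Vale.Agent.Lib.P329
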